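import Vale.Agent.P063.Final

namespace Vale.Agent.Results.P063.FriedgutKalai

open Vale.Agent.P063.Thr

/-- For each fixed `0 < ε < 1/2`, every nontrivial increasing graph property on `n ≥ 2` vertices
has threshold width `w_ε ≤ C_ε / (log n)^2`. -/
theorem result :
    ∀ ε : ℝ, 0 < ε → ε < 1 / 2 → ∃ C : ℝ, ∀ n : ℕ, 2 ≤ n → ∀ A : Set (Edge n → Bool),
      IsGraphProp A → width A ε ≤ C / (Real.log n) ^ 2 :=
  q1_of_keyMid Vale.Agent.P063.keyBoundMid

end Vale.Agent.Results.P063.FriedgutKalai
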