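/-
P063, question Q1 of Friedgut and Kalai: every nontrivial increasing graph property on `n` vertices
has threshold width `O_ε(1 / (log n) ^ 2)`.
-/
import Vale.Agent.P063X.Width

open Finset

namespace Vale.Agent.Results.P063.WidthLogSquared

/-- The edge set of the complete graph on `Fin n`: the two-element subsets of `Fin n`.
A graph on `Fin n` is a subset of `edges n`. -/
def edges (n : ℕ) : Finset (Finset (Fin n)) := Finset.powersetCard 2 Finset.univ

/-- A graph property on `n` vertices: a family of graphs invariant under all permutations of the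
vertices. -/
def IsGraphProperty {n : ℕ} (P : Finset (Finset (Finset (Fin n)))) : Prop :=
  P ⊆ (edges n).powerset ∧
    ∀ π : Equiv.Perm (Fin n), ∀ G ∈ P, G.image (fun e => e.image π) ∈ P

/-- The property is increasing: adding edges preserves membership. -/
def IsIncreasing {n : ℕ} (P : Finset (Finset (Finset (Fin n)))) : Prop :=
  ∀ G ∈ P, ∀ H, G ⊆ H → H ⊆ edges n → H ∈ P

/-- The property is nontrivial: neither empty nor everything. -/
def IsNontrivial {n : ℕ} (P : Finset (Finset (Finset (Fin n)))) : Prop :=
  P.Nonempty ∧ ∃ G, G ⊆ edges n ∧ G ∉ P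

/-- The probability that the random graph `G(n, p)` lies in `P`. -/
noncomputable def mu {n : ℕ} (P : Finset (Finset (Finset (Fin n)))) (p : ℝ) : ℝ :=
  ∑ G ∈ P, p ^ G.card * (1 - p) ^ (edges n \ G).card

/-- `p_a(P) = inf {p ∈ [0, 1] : μ_p(P) ≥ a}`. -/
noncomputable def threshold {n : ℕ} (P : Finset (Finset (Finset (Fin n)))) (a : ℝ) : ℝ :=
  sInf {p : ℝ | p ∈ Set.Icc (0 : ℝ) 1 ∧ a ≤ mu P p}

/-- The threshold width `w_ε(P) = p_{1 - ε}(P) - p_ε(P)`. -/
noncomputable def width {n : ℕ} (P : Finset (Finset (Finset (Fin n)))) (ε : ℝ) : ℝ :=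
  threshold P (1 - ε) - threshold P ε

theorem result :
    ∀ ε : ℝ, 0 < ε → ε < 1 / 2 → ∃ C : ℝ, 0 < C ∧ ∀ n : ℕ, 2 ≤ n →
      ∀ P : Finset (Finset (Finset (Fin n))),
        IsGraphProperty P → IsIncreasing P → IsNontrivial P →
          width P ε ≤ C / (Real.log n) ^ 2 := by
  intro ε h0 h1
  obtain ⟨C, hC, hmain⟩ := Vale.Agent.P063X.width_core h0 h1
  refine ⟨C, hC, ?_⟩
  intro n hn P hP hI hN
  classical
  obtain ⟨hPU, hPsym⟩ := hP
  let f : Finset (Finset (Fin n)) → ℝ := fun x => if x ∈ P then 1 else 0
  have hU : Vale.Agent.P063X.edgesOf (Fin n) = edges n := rfl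
  have hmu : ∀ p : ℝ, mu P p = Vale.Agent.P063X.Ex p (Vale.Agent.P063X.edgesOf (Fin n)) f := by
    intro p
    unfold mu Vale.Agent.P063X.Ex
    rw [hU]
    have h2 : ∀ x ∈ (edges n).powerset,
        p ^ x.card * (1 - p) ^ (edges n \ x).card * f x
          = if x ∈ P then p ^ x.card * (1 - p) ^ (edges n \ x).card else 0 := by
      intro x _
      simp only [f]
      split_ifs <;> simp
    rw [Finset.sum_congr rfl h2, Finset.sum_ite_mem, Finset.inter_eq_right.mpr hPU]
  have hB : Vale.Agent.P063X.IsBoolOn (Vale.Agent.P063X.edgesOf (Fin n)) f := by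
    intro x _
    simp only [f]
    split_ifs
    · right; rfl
    · left; rfl
  have hM : Vale.Agent.P063X.IsMonoOn (Vale.Agent.P063X.edgesOf (Fin n)) f := by
    intro x y hxy hy
    simp only [f]
    by_cases hx : x ∈ P
    · rw [if_pos hx, if_pos (hI x hx y hxy hy)]
    · rw [if_neg hx]
      split_ifs <;> norm_num
  have himg : ∀ (π : Equiv.Perm (Fin n)) (x : Finset (Finset (Fin n))),
      x.map (Vale.Agent.P063X.rho π).toEmbedding = x.image (fun e => e.image π) := by
    intro π x
    rw [Finset.map_eq_image]
    apply Finset.image_congr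
    intro e _
    show e.map π.toEmbedding = e.image π
    rw [Finset.map_eq_image]
    rfl
  have hS : Vale.Agent.P063X.IsSymOn f := by
    intro π x _
    simp only [f]
    have h3 : x ∈ P ↔ x.map (Vale.Agent.P063X.rho π).toEmbedding ∈ P := by
      constructor
      · intro hx
        rw [himg]
        exact hPsym π x hx
      · intro hx
        have h4 := hPsym π.symm _ hx
        rw [← himg] at h4
        have h5 : (x.map (Vale.Agent.P063X.rho π).toEmbedding).map
            (Vale.Agent.P063X.rho π.symm).toEmbedding = x := by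
          ext a
          simp only [Finset.mem_map, Vale.Agent.P063X.rho_toEmbedding_apply]
          constructor
          · rintro ⟨b, ⟨c, hc, rfl⟩, rfl⟩
            have : (c.map π.toEmbedding).map (π.symm).toEmbedding = c := by
              ext d
              simp
            rwa [this]
          · intro ha
            refine ⟨a.map π.toEmbedding, ⟨a, ha, rfl⟩, ?_⟩
            ext d
            simp
        rwa [h5] at h4
    by_cases hx : x ∈ P
    · rw [if_pos hx, if_pos (h3.mp hx)]
    · rw [if_neg hx, if_neg (fun h => hx (h3.mpr h))]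
  have hTop : f (Vale.Agent.P063X.edgesOf (Fin n)) = 1 := by
    obtain ⟨G, hG⟩ := hN.1
    have h2 : Vale.Agent.P063X.edgesOf (Fin n) ∈ P :=
      hI G hG _ (Finset.mem_powerset.mp (hPU hG)) (Finset.Subset.refl _)
    simp only [f]
    rw [if_pos h2]
  have h := hmain n hn f hB hM hS hTop
  unfold width threshold
  simp only [hmu]
  exact h

end Vale.Agent.Results.P063.WidthLogSquared
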